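import Vale.Agent.Lib.P038.Sat.Shapes.S6_6t
noncomputable section
namespace Vale.Agent.Lib.P038.Sat.I.M2_6
open Vale.Agent.Lib.P038.Sat
def W : Nat := 119
def M : Nat := 664613997892457936451903530140172287
def GT : Nat := 863647908820606738403603869260468455406986154547374762987416048481184360603867383378582117356025748567572618261215586368705695058535440521619120768609901192112862543062841503944503640651919646895497739781381648066039331960966466863392693105911660198105094415123961464955669996248534411304614374368847717111503523595527881005553922573685611805332740849698457984764834444306850489148138592317912582865593787242423837784423298621107271530388610540084956360876701203566505992553846849651679823449651674199471742196790247115871065784909012127882623917436672979375739620199098037279907759875570239588535508288163060710048304059289966515469028993636137307026118081659296782794744582713801236917040907014930040828859972634320131506285045026431902793926703101894152727019813484823156942861129167502698050480415750881919258332675925161516568063607548203607547973736705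
def h0 : T := (T.l (nat_lit 0))
def H : T := h0
theorem hlast : getB H 0 = 0 := by decide +kernel
end Vale.Agent.Lib.P038.Sat.I.M2_6
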